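import Mathlib

/-!
A set meeting countably many infinite sets infinitely and avoiding countably many free
ultrafilters.
-/

open Set Filter

namespace Vale.Agent.P068

theorem exists_inj {ι E : Type*} [Countable ι] [Countable E] (C : ι → Set E)
    (h : ∀ i, (C i).Infinite) : ∃ q : ι → E, q.Injective ∧ ∀ i, q i ∈ C i := by
  obtain ⟨c, hc⟩ := exists_injective_nat E
  obtain ⟨d, hd⟩ := exists_injective_nat ι
  rcases isEmpty_or_nonempty ι with _ | _
  · exact ⟨isEmptyElim, fun i => isEmptyElim i, isEmptyElim⟩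
  choose g g1 g2 using fun i m => ((h i).image hc.injOn).exists_gt m
  let s : ℕ → ℕ := fun n => n.rec (g (d.invFun 0) 0) fun n m => g (d.invFun (n + 1)) m
  have s1 : StrictMono s := strictMono_nat_of_lt_succ fun n => g2 _ _
  have s2 : ∀ n, s n ∈ c '' C (d.invFun n) := fun n => by cases n <;> exact g1 _ _
  choose q q1 q2 using s2
  exact ⟨q ∘ d, fun i j e => hd (s1.injective (by rw [← q2, ← q2]; exact congrArg c e)),
    fun i => by simpa [Function.leftInverse_invFun hd i] using q1 (d i)⟩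

theorem sel {E : Type*} [Countable E] {C : Set (Set E)} {U : Set (Ultrafilter E)}
    (hC : C.Countable) (hU : U.Countable) (h1 : ∀ c ∈ C, c.Infinite)
    (h2 : ∀ u ∈ U, (u : Filter E) ≤ cofinite) :
    ∃ S : Set E, (∀ c ∈ C, (S ∩ c).Infinite) ∧ ∀ u ∈ U, S ∉ u := by
  classical
  rcases C.eq_empty_or_nonempty with rfl | hn
  · exact ⟨∅, by simp, fun u _ => u.empty_notMem⟩
  obtain ⟨c, rfl⟩ := hC.exists_eq_range hn
  obtain ⟨q, q1, q2⟩ := exists_inj (ι := ℕ × ℕ × Finset ℕ) (fun i => c i.1)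
    fun i => h1 _ ⟨_, rfl⟩
  let K : Set ℕ → Set (ℕ × ℕ × Finset ℕ) := fun x =>
    {i | i.1 ≤ i.2.1 ∧ i.2.2 = (Finset.range i.2.1).filter (· ∈ x)}
  have k1 : ∀ x y, x ≠ y → (q '' K x ∩ q '' K y).Finite := fun x y n => by
    obtain ⟨m, hm⟩ : ∃ m, ¬(m ∈ x ↔ m ∈ y) := not_forall.1 fun h => n (Set.ext h)
    rw [← image_inter q1]
    refine (((finite_Iic m).prod ((finite_Iic m).prod (finite_Iic (Finset.range m)))).subset
      ?_).image _
    rintro i ⟨⟨a, b⟩, _, b'⟩
    have : i.2.1 ≤ m := le_of_not_gt fun l => hm (by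
      simpa [l] using Finset.ext_iff.1 (b.symm.trans b') m)
    exact ⟨a.trans this, this, b ▸ (Finset.filter_subset _ _).trans (Finset.range_mono this)⟩
  have k2 : (⋃ u ∈ U, {x | q '' K x ∈ u}).Countable := hU.biUnion fun u hu =>
    Set.Subsingleton.countable fun x hx y hy => by_contra fun n =>
      Ultrafilter.compl_notMem_iff.2 (inter_mem hx hy) (h2 u hu (k1 x y n).compl_mem_cofinite)
  haveI : Uncountable (Set ℕ) := by
    rw [← Cardinal.aleph0_lt_mk_iff, Cardinal.mk_set, Cardinal.mk_nat]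
    exact Cardinal.cantor _
  obtain ⟨x, hx⟩ := (ne_univ_iff_exists_notMem (⋃ u ∈ U, {x | q '' K x ∈ u})).1 fun e =>
    not_countable_univ (e ▸ k2)
  refine ⟨q '' K x, ?_, fun u hu h => hx (mem_biUnion hu h)⟩
  rintro _ ⟨k, rfl⟩
  refine infinite_of_injective_forall_mem (f := fun n : ℕ =>
    q (k, k + n, (Finset.range (k + n)).filter (· ∈ x))) (fun n m e => ?_) fun n =>
      ⟨⟨_, ⟨Nat.le_add_right _ _, rfl⟩, rfl⟩, q2 (k, _)⟩
  simpa using congrArg (·.2.1) (q1 e)

end Vale.Agent.P068
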