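import Vale.Agent.P068.Unif
import Vale.Agent.P068.Sel

/-!
The uniform matroid on two copies of the naturals in which exchanging infinite sets makes an
ordinal drop.
-/

open Set Filter

namespace Vale.Agent.P068

/-- The left part of a set. -/
def Zp (A : Set (Bool × ℕ)) : Set ℕ := {i | (false, i) ∈ A}

/-- The missing right part of a set. -/
def Wp (A : Set (Bool × ℕ)) : Set ℕ := {i | (true, i) ∉ A}

/-- The right copy. -/
def R : Set (Bool × ℕ) := {x | x.1 = true}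

theorem inj (b : Bool) : Function.Injective (Prod.mk b : ℕ → Bool × ℕ) := Prod.mk_right_injective b

theorem diff_R (A : Set (Bool × ℕ)) : A \ R = Prod.mk false '' Zp A := by
  ext ⟨b, i⟩
  cases b <;> simp [R, Zp]

theorem R_diff (A : Set (Bool × ℕ)) : R \ A = Prod.mk true '' Wp A := by
  ext ⟨b, i⟩
  cases b <;> simp [R, Wp]

theorem Zp_diff {A B : Set (Bool × ℕ)} (h : (A \ B).Finite) : (Zp A \ Zp B).Finite :=
  (h.preimage (inj false).injOn).subset fun _ hx => hx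

theorem Wp_diff {A B : Set (Bool × ℕ)} (h : (A \ B).Finite) : (Wp B \ Wp A).Finite :=
  (h.preimage (inj true).injOn).subset fun _ hx => ⟨not_not.1 hx.2, hx.1⟩

variable {Ω : Type} [LinearOrder Ω] {u : Ω → Ultrafilter ℕ}

/-- The rank of `W` is below the rank of `Z`. -/
def Lt (u : Ω → Ultrafilter ℕ) (W Z : Set ℕ) : Prop := ∃ b, W ∈ u b ∧ ∀ d ≤ b, Z ∉ u d

/-- The admissible new bases. -/
def Good (u : Ω → Ultrafilter ℕ) (B : Set (Bool × ℕ)) : Prop :=
  (Zp B).Infinite ∧ Lt u (Wp B) (Zp B)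

theorem mem_of_diff {E : Type*} {v : Ultrafilter E} (hv : (v : Filter E) ≤ cofinite) {A B : Set E}
    (h : A ∈ v) (k : (A \ B).Finite) : B ∈ v :=
  mem_of_superset (inter_mem h (hv k.compl_mem_cofinite)) fun _ hx => by_contra fun n =>
    hx.2 ⟨hx.1, n⟩

theorem inf_of_mem {E : Type*} {v : Ultrafilter E} (hv : (v : Filter E) ≤ cofinite) {A : Set E}
    (h : A ∈ v) : A.Infinite := fun k => v.empty_notMem (mem_of_diff hv h k.diff)

theorem Lt.mono (hu : ∀ a, (u a : Filter ℕ) ≤ cofinite) {W Z W' Z' : Set ℕ} (h : Lt u W Z)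
    (h1 : (W \ W').Finite) (h2 : (Z' \ Z).Finite) : Lt u W' Z' :=
  h.imp fun b h => ⟨mem_of_diff (hu b) h.1 h1, fun d l k => h.2 d l (mem_of_diff (hu d) k h2)⟩

theorem exists_ultra {E : Type*} {A : Set E} (h : A.Infinite) :
    ∃ v : Ultrafilter E, (v : Filter E) ≤ cofinite ∧ A ∈ v := by
  haveI := h.cofinite_inf_principal_neBot
  exact ⟨.of (cofinite ⊓ 𝓟 A), (Ultrafilter.of_le _).trans inf_le_left,
    le_principal_iff.1 ((Ultrafilter.of_le _).trans inf_le_right)⟩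

theorem step (hΩ : ∀ a : Ω, (Iic a).Countable) (hu : ∀ a, (u a : Filter ℕ) ≤ cofinite)
    {F : Set (Set (Bool × ℕ))} (hF : F.Countable) (hR : R ∈ F) {I X : Set (Bool × ℕ)} (s : I ⊆ X)
    (h : ∀ B ∈ F, (B \ I).Infinite ∧ (X \ B).Infinite) (l : Lt u (Wp I) (Zp I)) :
    ∃ A, Good u A ∧ (∀ B ∈ F, (B \ A).Infinite ∧ (A \ B).Infinite) ∧ I ⊆ A ∧ A ⊆ X := by
  obtain ⟨b, l1, l2⟩ := l
  choose! v v1 v2 using fun B hB => exists_ultra (h B hB).1
  obtain ⟨S, s1, s2⟩ := sel (U := v '' F ∪ insert ((u b).map (Prod.mk true))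
    ((fun d => (u d).map (Prod.mk false)) '' Iic b)) (hF.image (X \ ·))
    ((hF.image _).union (((hΩ b).image _).insert _)) (forall_mem_image.2 fun B hB => (h B hB).2)
    (by
      rintro _ (⟨B, hB, rfl⟩ | rfl | ⟨d, _, rfl⟩)
      exacts [v1 B hB, (inj true).tendsto_cofinite.mono_left (hu b),
        (inj false).tendsto_cofinite.mono_left (hu d)])
  have k : ∀ B ∈ F, (B \ (I ∪ S ∩ X)).Infinite ∧ ((I ∪ S ∩ X) \ B).Infinite := fun B hB =>
    ⟨(inf_of_mem (v1 B hB) (inter_mem (v2 B hB) (Ultrafilter.compl_mem_iff_notMem.2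
      (s2 _ (.inl ⟨B, hB, rfl⟩))))).mono fun x hx => ⟨hx.1.1, fun k => k.elim hx.1.2
        fun k => hx.2 k.1⟩, (s1 _ ⟨B, hB, rfl⟩).mono fun x hx => ⟨.inr ⟨hx.1, hx.2.1⟩, hx.2.2⟩⟩
  refine ⟨_, ⟨.of_image _ (diff_R _ ▸ (k R hR).2), b, ?_, fun d l k => ?_⟩, k, subset_union_left,
    union_subset s inter_subset_right⟩
  · exact mem_of_superset (inter_mem l1 (Ultrafilter.mem_map.1 (Ultrafilter.compl_mem_iff_notMem.2
      (s2 _ (.inr (.inl rfl)))))) fun i hi k => k.elim hi.1 fun k => hi.2 k.1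
  · exact (Ultrafilter.union_mem_iff.1 k).elim (l2 d l) fun k =>
      s2 _ (.inr (.inr ⟨d, l, rfl⟩)) (Ultrafilter.mem_map.2 (mem_of_superset k fun i hi => hi.1))

theorem family [WellFoundedLT Ω] (hΩ : ∀ a : Ω, (Iic a).Countable)
    (hu : ∀ a, (u a : Filter ℕ) ≤ cofinite) (hu' : ∀ S : Set ℕ, S.Infinite → ∃ a, S ∈ u a)
    {t : Ω → Set (Bool × ℕ) × Set (Bool × ℕ)} (ht : t.Surjective) :
    ∃ F : Set (Set (Bool × ℕ)), (∀ B ∈ F, B = R ∨ Good u B) ∧
      Unif fun A => ∃ B ∈ F, D A B 1 := by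
  classical
  let Ψ : Ω → Set (Set (Bool × ℕ)) → Set (Bool × ℕ) → Prop := fun a F A => Good u A ∧
    (∀ B ∈ F, (B \ A).Infinite ∧ (A \ B).Infinite) ∧ (A ⊆ (t a).1 ∨ (t a).1 ⊆ A ∧ A ⊆ (t a).2)
  let G : Ω → Set (Set (Bool × ℕ)) → Set (Bool × ℕ) := fun a F =>
    if h : ∃ A, Ψ a F A then h.choose else R
  obtain ⟨B, hB⟩ : ∃ B : Ω → Set (Bool × ℕ), ∀ a, B a = G a (insert R (B '' Iio a)) :=
    ⟨WellFoundedLT.fix fun a f => G a (insert R (range fun b : Iio a => f b b.2)), fun a => by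
      rw [WellFoundedLT.fix_eq, image_eq_range]⟩
  have b1 : ∀ a, (∃ A, Ψ a (insert R (B '' Iio a)) A) → Ψ a (insert R (B '' Iio a)) (B a) :=
    fun a h => by
      rw [hB a]
      simp only [G, dif_pos h]
      exact h.choose_spec
  have b2 : ∀ A ∈ insert R (range B), A = R ∨ ∃ a, B a = A ∧ Ψ a (insert R (B '' Iio a)) A := by
    rintro _ (rfl | ⟨a, rfl⟩)
    · exact .inl rfl
    · exact or_iff_not_imp_left.2 fun n => ⟨a, rfl, b1 a (by_contra fun h => n (by
        rw [hB a]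
        simp only [G, dif_neg h]))⟩
  have b3 : ∀ A ∈ insert R (range B), A = R ∨ Good u A := fun A hA =>
    (b2 A hA).imp_right fun ⟨_, _, h⟩ => h.1
  have b4 : ∀ A ∈ insert R (range B), A.Infinite ∧ Aᶜ.Infinite := fun A hA => by
    rcases b3 A hA with rfl | ⟨h, b, h', -⟩
    · exact ⟨infinite_of_injective_forall_mem (inj true) fun _ => rfl,
        infinite_of_injective_forall_mem (inj false) fun _ => Bool.false_ne_true⟩
    · exact ⟨fun f => h (f.preimage (inj false).injOn),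
        fun f => inf_of_mem (hu b) h' (f.preimage (inj true).injOn)⟩
  refine ⟨_, b3, unif_of_family b4 (fun A hA A' hA' f => ?_) (fun I X s => ?_) 1⟩
  · rcases b2 A hA with rfl | ⟨a, rfl, h⟩ <;> rcases b2 A' hA' with rfl | ⟨a', rfl, h'⟩
    · rfl
    · exact ((h'.2.1 _ (.inl rfl)).1 f).elim
    · exact ((h.2.1 _ (.inl rfl)).2 f).elim
    · rcases lt_trichotomy a a' with l | rfl | l
      exacts [((h'.2.1 _ (.inr ⟨a, l, rfl⟩)).1 f).elim, rfl,
        ((h.2.1 _ (.inr ⟨a', l, rfl⟩)).2 f).elim]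
  · by_contra n
    have n1 : ∀ A ∈ insert R (range B), (A \ I).Infinite ∧ (X \ A).Infinite := fun A hA =>
      ⟨fun f => n ⟨A, hA, .inl f⟩, fun f => n ⟨A, hA, .inr (.inl f)⟩⟩
    obtain ⟨a, ha⟩ := ht (I, X)
    have c : (insert R (B '' Iio a)).Countable :=
      (((hΩ a).mono Iio_subset_Iic_self).image _).insert _
    have s' : insert R (B '' Iio a) ⊆ insert R (range B) :=
      insert_subset_insert (image_subset_range _ _)
    have l0 : ∀ I, (Wp I).Infinite → (Zp I).Finite → Lt u (Wp I) (Zp I) := fun I h1 h2 =>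
      (hu' _ h1).imp fun b h => ⟨h, fun d _ k => inf_of_mem (hu d) k h2⟩
    have := b1 a (by
      simp only [Ψ, ha]
      by_cases l : Lt u (Wp I) (Zp I)
      · exact (step hΩ hu c (.inl rfl) s (fun A hA => n1 A (s' hA)) l).imp fun A h =>
          ⟨h.1, h.2.1, .inr h.2.2⟩
      · refine (step hΩ hu c (.inl rfl) (empty_subset I) (fun A hA => ⟨by
          simpa using (b4 A (s' hA)).1, fun f => l ?_⟩) (l0 _ (by
            simpa [Wp] using infinite_univ) (by simp [Zp]))).imp fun A h =>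
              ⟨h.1, h.2.1, .inl h.2.2.2⟩
        rcases b3 A (s' hA) with rfl | h
        · exact l0 _ (.of_image _ (R_diff _ ▸ (n1 _ (.inl rfl)).1))
            (.of_finite_image (diff_R _ ▸ f) (inj false).injOn)
        · exact h.2.mono hu (Wp_diff f) (Zp_diff f))
    simp only [Ψ, ha] at this
    exact n ⟨_, .inr ⟨a, rfl⟩, this.2.2.imp (fun h => by simp [diff_eq_empty.2 h]) .inr⟩

end Vale.Agent.P068
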