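import Vale.Agent.P068.Build

/-!
A double ray of uniform matroids with no wave and no cowave.
-/

open Set Filter

namespace Vale.Agent.P068

/-- The set with left part `Z` and missing right part `W`. -/
def pr (Z W : Set ℕ) : Set (Bool × ℕ) := {x | if x.1 then x.2 ∉ W else x.2 ∈ Z}

theorem exists_P (hCH : Cardinal.continuum.{0} = Cardinal.aleph 1) :
    ∃ (Ω : Type) (_ : LinearOrder Ω) (_ : WellFoundedLT Ω) (u : Ω → Ultrafilter ℕ)
      (P : Set (Bool × ℕ) → Prop), Unif P ∧ (∀ a, (u a : Filter ℕ) ≤ cofinite) ∧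
      (∀ S : Set ℕ, S.Infinite → ∃ a, S ∈ u a) ∧
      (∀ Z W A, P A → A ⊆ pr Z W → Z.Finite → W.Finite ∧ W.ncard < Z.ncard) ∧
      ∀ Z W A, P A → pr Z W ⊆ A → Z.Infinite → Lt u W Z := by
  have hΩ : ∀ a : (Cardinal.aleph 1).ord.ToType, (Iic a).Countable := fun a => by
    rw [← Iio_insert, countable_insert, ← Cardinal.le_aleph0_iff_set_countable, ← Order.lt_succ_iff,
      Cardinal.succ_aleph0]
    simpa using Cardinal.mk_Iio_lt a (by simp)
  have sj : ∀ T : Type, Nonempty T → Cardinal.mk T ≤ Cardinal.continuum →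
      ∃ t : (Cardinal.aleph 1).ord.ToType → T, t.Surjective := fun T _ h => by
    obtain ⟨f⟩ := (Cardinal.le_def T (Cardinal.aleph 1).ord.ToType).1 (by simpa [← hCH])
    exact ⟨_, Function.invFun_surjective f.injective⟩
  obtain ⟨t, ht⟩ := sj (Set (Bool × ℕ) × Set (Bool × ℕ)) inferInstance (by simp)
  obtain ⟨s, hs⟩ := sj {S : Set ℕ // S.Infinite} ⟨⟨_, infinite_univ⟩⟩
    ((Cardinal.mk_subtype_le _).trans (by simp))
  choose u u1 u2 using fun a => exists_ultra (s a).2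
  have u3 : ∀ S : Set ℕ, S.Infinite → ∃ a, S ∈ u a := fun S h =>
    (hs ⟨S, h⟩).imp fun a e => by simpa [e] using u2 a
  obtain ⟨F, f1, f2⟩ := family hΩ u1 u3 ht
  refine ⟨_, inferInstance, inferInstance, u, _, f2, u1, u3, ?_, ?_⟩
  · rintro Z W A ⟨B, hB, d⟩ l h
    have l1 : Zp A ⊆ Z := fun i hi => l hi
    have l2 : W ⊆ Wp A := fun i hi k => l k hi
    rcases f1 B hB with rfl | g
    · obtain ⟨-, d2, d3⟩ := d
      rw [diff_R, R_diff, ncard_image_of_injective _ (inj _), ncard_image_of_injective _ (inj _)]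
        at d3
      replace d2 : (Wp A).Finite := .of_finite_image (R_diff _ ▸ d2) (inj true).injOn
      have := ncard_le_ncard l1 h
      have := ncard_le_ncard l2 d2
      exact ⟨d2.subset l2, by omega⟩
    · exact (g.1 (((Zp_diff d.2.1).union (h.subset l1)).subset fun i hi => by
        by_cases i ∈ Zp A <;> simp [*])).elim
  · rintro Z W A ⟨B, hB, d⟩ l h
    have l1 : Z ⊆ Zp A := fun i hi => l hi
    have l2 : Wp A ⊆ W := fun i hi => by_contra fun k => hi (l k)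
    rcases f1 B hB with rfl | g
    · exact (h (Finite.subset (.of_finite_image (diff_R _ ▸ d.1) (inj false).injOn) l1)).elim
    · exact g.2.mono u1 ((Wp_diff d.1).subset (diff_subset_diff_right l2))
        ((Zp_diff d.1).subset (diff_subset_diff_left l1))

theorem ray {Ω : Type} [LinearOrder Ω] [WellFoundedLT Ω] {u : Ω → Ultrafilter ℕ}
    (u1 : ∀ a, (u a : Filter ℕ) ≤ cofinite) (u3 : ∀ S : Set ℕ, S.Infinite → ∃ a, S ∈ u a)
    {s : ℕ → Prop} {Z : ℕ → Set ℕ}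
    (h1 : ∀ n, s n → (Z n).Finite → (Z (n + 1)).Finite ∧ (Z (n + 1)).ncard < (Z n).ncard)
    (h2 : ∀ n, ¬s n → (Z n).Infinite → Lt u (Z (n + 1)) (Z n))
    (h3 : ∀ n, s n → ¬s (n + 1) → Z (n + 1) = univ) (h4 : ∀ n, ¬s n → s (n + 1) → Z (n + 1) = ∅) :
    s 0 ↔ (Z 0).Infinite := by
  have k1 : ∀ k n, (Z n).ncard = k → s n → (Z n).Infinite := fun k => by
    induction k using Nat.strong_induction_on with
    | _ k ih =>
      rintro n rfl h f
      exact ih _ (h1 n h f).2 _ rfl (by_contra fun k =>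
        infinite_univ (h3 n h k ▸ (h1 n h f).1)) (h1 n h f).1
  have k2 : ∀ a n, Z n ∈ u a → s n := fun a => by
    induction a using WellFoundedLT.induction with
    | _ a ih =>
      intro n h
      by_contra k
      obtain ⟨b, b1, b2⟩ := h2 n k (inf_of_mem (u1 a) h)
      exact (u b).empty_notMem (h4 n k (ih b (lt_of_not_ge fun l => b2 a l h) _ b1) ▸ b1)
  exact ⟨k1 _ 0 rfl, fun h => (u3 _ h).elim fun a => k2 a 0⟩

/-- The two bundles at vertex `n`. -/
def j (n : ℤ) : Bool × ℕ ↪ ℤ × ℕ :=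
  ⟨fun x => (if x.1 then n + 1 else n, x.2), by rintro ⟨_ | _, i⟩ ⟨_ | _, k⟩ <;> simp⟩

theorem j_apply (n : ℤ) (x : Bool × ℕ) : j n x = (if x.1 then n + 1 else n, x.2) := rfl

theorem mem_j {n : ℤ} {e : ℤ × ℕ} : e ∈ range (j n) ↔ e.1 = n ∨ e.1 = n + 1 := by
  constructor
  · rintro ⟨⟨_ | _, i⟩, rfl⟩ <;> simp [j_apply]
  · obtain ⟨a, i⟩ := e
    rintro (rfl | rfl)
    exacts [⟨(false, i), rfl⟩, ⟨(true, i), rfl⟩]

theorem glue {P : ℤ → Set (Bool × ℕ) → Prop} (h : ∀ n, Unif (P n)) (p : ℤ → Prop)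
    (hp : ∀ n, p (n + 1) ↔ ¬p n) : ∃ M : Matroid (ℤ × ℕ), M.E = univ ∧ ∀ J, M.Indep J →
      ∀ n, p n → (∃ B, P n B ∧ j n ⁻¹' J ⊆ B) ∧
        ∀ e ∈ range (j n), e ∈ M.closure J → e ∈ J ∨ P n (j n ⁻¹' J) := by
  have d : ∀ n m : {n // p n}, ∀ e, e ∈ range (j n) → e ∈ range (j m) → n = m := by
    rintro ⟨n, hn⟩ ⟨m, hm⟩ e a b
    rw [mem_j] at a b
    by_contra k
    obtain rfl | rfl : n = m + 1 ∨ m = n + 1 := by
      simp at k a b
      omega
    exacts [(hp _).1 hn hm, (hp _).1 hm hn]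
  have c : ⋃ n : {n // p n}, range (j n) = univ := eq_univ_of_forall fun e => by
    by_cases k : p e.1
    · exact mem_iUnion.2 ⟨⟨_, k⟩, mem_j.2 (.inl rfl)⟩
    · exact mem_iUnion.2 ⟨⟨e.1 - 1, by_contra fun l => k (by simpa using (hp _).2 l)⟩,
        mem_j.2 (.inr (by simp))⟩
  obtain ⟨M, m1, m2⟩ : ∃ M : Matroid (ℤ × ℕ), M.E = univ ∧ ∀ J, M.Indep J ↔
      ∀ n : {n // p n}, ∃ B, P n B ∧ j n ⁻¹' J ⊆ B :=
    ⟨.disjointSigma (fun n : {n // p n} => (h n).matroid.mapEmbedding (j n)) fun n m k =>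
      disjoint_left.2 fun e a b => k (d n m e (image_subset_range _ _ a)
        (image_subset_range _ _ b)), by simpa [Unif.matroid] using c, fun J => by
          simp [Unif.matroid, c]⟩
  refine ⟨M, m1, fun J hJ n hn => ⟨(m2 J).1 hJ ⟨n, hn⟩, ?_⟩⟩
  rintro _ ⟨e, rfl⟩ he
  refine or_iff_not_imp_left.2 fun k => (h n).base_of_not (e := e) ((m2 J).1 hJ ⟨n, hn⟩) fun l =>
    ((hJ.mem_closure_iff_of_notMem k).1 he).not_indep ((m2 _).2 fun m => ?_)
  by_cases a : m = ⟨n, hn⟩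
  · subst a
    convert l using 4
    ext x
    simp
  · convert (m2 J).1 hJ m using 4
    ext x
    exact or_iff_right fun b => a (d m ⟨n, hn⟩ _ ⟨x, b⟩ ⟨e, rfl⟩)

/-- Exchange of the two copies. -/
def sw : Bool × ℕ ≃ Bool × ℕ := Equiv.boolNot.prodCongr (.refl _)

theorem main (hCH : Cardinal.continuum.{0} = Cardinal.aleph 1) :
    ∃ M N : Matroid (ℤ × ℕ), M.E = univ ∧ N.E = univ ∧ ¬∃ JM JN, Disjoint JM JN ∧
      M.Indep (JM ∪ JN) ∧ N.Indep (JM ∪ JN) ∧ M.closure JM ∪ N.closure JN = univ := by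
  classical
  obtain ⟨Ω, _, _, u, P, hP, u1, u3, p1, p2⟩ := exists_P hCH
  let P1 : ℤ → Set (Bool × ℕ) → Prop := fun n A => if 0 ≤ n then P A else P (sw ⁻¹' Aᶜ)
  have q1 : ∀ n, Unif (P1 n) := fun n => by
    by_cases h : 0 ≤ n <;> simp only [P1, h]
    exacts [hP, (hP.equiv sw).compl]
  obtain ⟨M, m1, m2⟩ := glue q1 Even fun n => Int.even_add_one
  obtain ⟨N, n1, n2⟩ := glue (fun n => (q1 n).compl) (¬Even ·) fun n => by simp [Int.even_add_one]
  refine ⟨M, N, m1, n1, fun ⟨JM, JN, d, iM, iN, c⟩ => ?_⟩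
  let Z : ℤ → Set ℕ := fun n => {i | (n, i) ∈ JM ∪ JN ↔ Even n}
  let s : ℤ → Prop := fun n => if Even n then P1 n (j n ⁻¹' JM) else ¬P1 n (j n ⁻¹' JN)ᶜ
  have e1 : ∀ n, Even n → j n ⁻¹' (JM ∪ JN) = pr (Z n) (Z (n + 1)) := fun n h => by
    have h' : ¬Even (n + 1) := fun k => Int.even_add_one.1 k h
    ext ⟨_ | _, i⟩ <;> simp [j_apply, pr, Z, h, h', -mem_union, -preimage_union]
  have e2 : ∀ n, ¬Even n → (j n ⁻¹' (JM ∪ JN))ᶜ = pr (Z n) (Z (n + 1)) := fun n h => by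
    have h' : Even (n + 1) := Int.even_add_one.2 h
    ext ⟨_ | _, i⟩ <;> simp [j_apply, pr, Z, h, h', -mem_union, -preimage_union]
  have a1 : ∀ n, s n → ∃ A, P1 n A ∧ A ⊆ pr (Z n) (Z (n + 1)) := fun n h => by
    by_cases k : Even n
    · exact ⟨_, by simpa [s, k] using h, (preimage_mono subset_union_left).trans (e1 n k).le⟩
    · obtain ⟨B, b1, b2⟩ := (n2 _ iN n k).1
      exact ⟨_, b1, e2 n k ▸ compl_subset_compl.2 b2⟩
  have a2 : ∀ n, ¬s n → ∃ A, P1 n A ∧ pr (Z n) (Z (n + 1)) ⊆ A := fun n h => by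
    by_cases k : Even n
    · exact e1 n k ▸ (m2 _ iM n k).1
    · exact ⟨_, by simpa [s, k] using h,
        e2 n k ▸ compl_subset_compl.2 (preimage_mono subset_union_right)⟩
  have a3 : ∀ n m e, Even n → ¬Even m → e ∈ range (j n) → e ∈ range (j m) →
      (s n → ¬s m → e ∉ JM ∪ JN) ∧ (¬s n → s m → e ∈ JM ∪ JN) := by
    rintro n m e hn hm ⟨x, hx⟩ ⟨y, hy⟩
    simp only [s, hn, hm, if_true, if_false, not_not]
    refine ⟨fun a b k => ?_, fun a b => ?_⟩
    · obtain ⟨B, b1, b2⟩ := (m2 _ iM n hn).1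
      obtain ⟨B', c1, c2⟩ := (n2 _ iN m hm).1
      have f1 := (q1 n).anti _ _ a b1 ((preimage_mono subset_union_left).trans b2)
      have f2 := (q1 m).compl.anti _ _ b c1 ((preimage_mono subset_union_right).trans c2)
      have g1 : j n x ∈ JM := (b2.trans f1.ge) (show j n x ∈ _ from hx ▸ k)
      have g2 : j m y ∈ JN := (c2.trans f2.ge) (show j m y ∈ _ from hy ▸ k)
      exact disjoint_left.1 d (hx ▸ g1) (hy ▸ g2)
    · rcases (c ▸ mem_univ e : e ∈ M.closure JM ∪ N.closure JN) with k | k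
      · exact .inl (((m2 _ (iM.subset subset_union_left) n hn).2 e ⟨x, hx⟩ k).resolve_right a)
      · exact .inr (((n2 _ (iN.subset subset_union_right) m hm).2 e ⟨y, hy⟩ k).resolve_right b)
  have a4 : ∀ n, (s n → ¬s (n + 1) → Z (n + 1) = univ) ∧ (¬s n → s (n + 1) → Z (n + 1) = ∅) :=
    fun n => by
      simp only [eq_univ_iff_forall, eq_empty_iff_forall_notMem, Z, mem_setOf_eq]
      by_cases k : Even n
      · have k' : ¬Even (n + 1) := by simp [Int.even_add_one, k]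
        have := fun i => a3 n (n + 1) (n + 1, i) k k' (mem_j.2 (.inr rfl)) (mem_j.2 (.inl rfl))
        exact ⟨fun a b i => iff_of_false ((this i).1 a b) k', fun a b i l =>
          k' (l.1 ((this i).2 a b))⟩
      · have k' : Even (n + 1) := Int.even_add_one.2 k
        have := fun i => a3 (n + 1) n (n + 1, i) k' k (mem_j.2 (.inl rfl)) (mem_j.2 (.inr rfl))
        exact ⟨fun a b i => iff_of_true ((this i).2 b a) k', fun a b i l =>
          (this i).1 b a (l.2 k')⟩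
  have w : ∀ Z W, sw ⁻¹' (pr Z W)ᶜ = pr W Z := fun Z W => by
    ext ⟨_ | _, i⟩ <;> simp [sw, pr]
  have r1 := ray u1 u3 (s := fun n => s n) (Z := fun n => Z n)
    (fun n h => (a1 n h).elim fun A a => p1 _ _ A (by simpa [P1] using a.1) a.2)
    (fun n h => (a2 n h).elim fun A a => p2 _ _ A (by simpa [P1] using a.1) a.2)
    (fun n => (a4 n).1) fun n => (a4 n).2
  have x1 : ∀ n : ℕ, -((n + 1 : ℕ) : ℤ) + 1 = -n := fun n => by omega
  have x2 : ∀ n : ℕ, ¬0 ≤ -((n + 1 : ℕ) : ℤ) := fun n => by omega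
  have r2 := ray u1 u3 (s := fun n => ¬s (-(n + 1 : ℕ))) (Z := fun n => Z (-n))
    (fun n h => (a2 _ h).elim fun A a => p1 _ _ _ (by simpa only [P1, x2, if_false] using a.1)
      (w _ _ ▸ x1 n ▸ preimage_mono (compl_subset_compl.2 a.2)))
    (fun n h => (a1 _ (not_not.1 h)).elim fun A a => p2 _ _ _
      (by simpa only [P1, x2, if_false] using a.1)
      (w _ _ ▸ x1 n ▸ preimage_mono (compl_subset_compl.2 a.2)))
    (fun n a b => x1 (n + 1) ▸ (a4 _).1 (not_not.1 b) (by rwa [x1]))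
    fun n a b => x1 (n + 1) ▸ (a4 _).2 b (by rw [x1]; exact not_not.1 a)
  have a5 := a4 (-1)
  norm_num at r1 r2 a5
  by_cases k : (Z 0).Infinite
  · exact k (a5.2 (r2.2 k) (r1.2 k) ▸ finite_empty)
  · exact k (a5.1 (by_contra fun l => k (r2.1 l)) (fun l => k (r1.1 l)) ▸ infinite_univ)

end Vale.Agent.P068
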