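import Mathlib

/-!
Uniform matroids on infinite sets, from families of bases given up to finite changes.
-/

open Set

namespace Vale.Agent.P068

variable {E : Type*}

/-- The set `A` lies below, above or inside the interval from `I` to `X`. -/
def Q (I X A : Set E) : Prop := A ⊆ I ∨ X ⊆ A ∨ (I ⊆ A ∧ A ⊆ X)

theorem Q.compl {I X A : Set E} (h : Q I X A) : Q Xᶜ Iᶜ Aᶜ := by
  unfold Q at *
  simp only [compl_subset_compl]
  tauto

/-- The bases of a uniform matroid. -/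
structure Unif (P : Set E → Prop) : Prop where
  exch : ∀ B, P B → ∀ e ∈ B, ∀ f ∉ B, P (insert f (B \ {e}))
  anti : ∀ B B', P B → P B' → B ⊆ B' → B = B'
  ivp : ∀ I X, I ⊆ X → ∃ B, P B ∧ Q I X B

theorem Unif.compl {P : Set E → Prop} (h : Unif P) : Unif fun A => P Aᶜ where
  exch B hB e he f hf := by
    convert h.exch _ hB f hf e (by simpa) using 1
    ext x
    by_cases x = e <;> by_cases x = f <;> simp_all
  anti B B' hB hB' s := compl_injective (h.anti _ _ hB' hB (compl_subset_compl.2 s)).symm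
  ivp I X s := by
    obtain ⟨B, hB, q⟩ := h.ivp _ _ (compl_subset_compl.2 s)
    exact ⟨Bᶜ, by simpa, by simpa using q.compl⟩

theorem Unif.equiv {P : Set E → Prop} (h : Unif P) (σ : E ≃ E) : Unif fun A => P (σ ⁻¹' A) where
  exch B hB e he f hf := by
    convert h.exch _ hB (σ.symm e) (by simpa) (σ.symm f) (by simpa) using 1
    ext x
    simp [Equiv.eq_symm_apply]
  anti B B' hB hB' s := σ.surjective.preimage_injective (h.anti _ _ hB hB' (preimage_mono s))
  ivp I X s := by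
    obtain ⟨B, hB, q⟩ := h.ivp _ _ (preimage_mono (f := σ) s)
    obtain ⟨B, rfl⟩ := σ.injective.preimage_surjective B
    exact ⟨B, hB, by simpa only [Q, σ.surjective.preimage_subset_preimage_iff] using q⟩

/-- The matroid with these bases. -/
def Unif.matroid {P : Set E → Prop} (h : Unif P) : Matroid E where
  E := univ
  IsBase := P
  Indep I := ∃ B, P B ∧ I ⊆ B
  indep_iff' _ := Iff.rfl
  exists_isBase := (h.ivp ∅ ∅ Subset.rfl).imp fun _ => And.left
  isBase_exchange B B' hB hB' e he := by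
    by_contra k
    have := h.anti _ _ hB' hB fun f hf => by_contra fun hf' => k ⟨f, ⟨hf, hf'⟩,
      h.exch _ hB e he.1 f hf'⟩
    exact he.2 (this ▸ he.1)
  maximality X _ I := by
    rintro ⟨B0, h0, s0⟩ s
    have key : ∀ B, P B → I ⊆ B → B ⊆ X →
        ∃ J, I ⊆ J ∧ Maximal (fun K => (∃ B, P B ∧ K ⊆ B) ∧ K ⊆ X) J := fun B hB s1 s2 =>
      ⟨B, s1, ⟨⟨B, hB, Subset.rfl⟩, s2⟩, fun K ⟨⟨B', h', s'⟩, _⟩ s3 =>
        h.anti _ _ hB h' (s3.trans s') ▸ s'⟩
    obtain ⟨B, hB, q | q | q⟩ := h.ivp I X s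
    · exact key B hB (h.anti _ _ hB h0 (q.trans s0) ▸ s0) (q.trans s)
    · exact ⟨X, s, ⟨⟨B, hB, q⟩, Subset.rfl⟩, fun K hK _ => hK.2⟩
    · exact key B hB q.1 q.2
  subset_ground _ _ := subset_univ _

theorem Unif.base_of_not {P : Set E → Prop} (h : Unif P) {J : Set E} {e : E}
    (h1 : ∃ B, P B ∧ J ⊆ B) (h2 : ¬∃ B, P B ∧ insert e J ⊆ B) : P J := by
  obtain ⟨B, hB, s⟩ := h1
  by_contra k
  obtain ⟨f, hf, hf'⟩ := exists_of_ssubset (s.ssubset_of_ne fun e => k (e ▸ hB))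
  by_cases he : e ∈ B
  · exact h2 ⟨B, hB, insert_subset he s⟩
  · exact h2 ⟨_, h.exch B hB f hf e he, insert_subset_insert fun x hx =>
      ⟨s hx, fun e => hf' (e ▸ hx)⟩⟩

/-- `A` differs from `B` by a finite set, with excess `n`. -/
def D (A B : Set E) (n : ℤ) : Prop :=
  (A \ B).Finite ∧ (B \ A).Finite ∧ ((A \ B).ncard : ℤ) - (B \ A).ncard = n

theorem D.compl {A B : Set E} {n : ℤ} (h : D A B n) : D Aᶜ Bᶜ (-n) := by
  unfold D at *
  simp only [compl_sdiff_compl]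
  exact ⟨h.2.1, h.1, by linarith [h.2.2]⟩

theorem D.insert {A B : Set E} {n : ℤ} (h : D A B n) {e : E} (he : e ∉ A) :
    D (insert e A) B (n + 1) := by
  obtain ⟨h1, h2, h3⟩ := h
  by_cases hb : e ∈ B
  · have e1 : Insert.insert e A \ B = A \ B := insert_diff_of_mem _ hb
    have e2 : B \ Insert.insert e A = (B \ A) \ {e} := by ext; simp; tauto
    have := ncard_diff_singleton_add_one (show e ∈ B \ A from ⟨hb, he⟩) h2
    exact ⟨e1 ▸ h1, e2 ▸ h2.diff, by rw [e1, e2]; omega⟩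
  · have e1 : Insert.insert e A \ B = Insert.insert e (A \ B) := insert_diff_of_notMem _ hb
    have e2 : B \ Insert.insert e A = B \ A := by ext; simp; aesop
    have := ncard_insert_of_notMem (show e ∉ A \ B from fun h => he h.1) h1
    exact ⟨e1 ▸ h1.insert e, e2 ▸ h2, by rw [e1, e2]; omega⟩

theorem D.erase {A B : Set E} {n : ℤ} (h : D A B n) {e : E} (he : e ∈ A) :
    D (A \ {e}) B (n - 1) := by
  have := (h.compl.insert (e := e) (by simpa)).compl
  rw [compl_compl] at this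
  convert this using 1
  · ext
    simp
    tauto
  · ring

theorem D.le {A A' B : Set E} {n n' : ℤ} (h : D A B n) (h' : D A' B n') (s : A ⊆ A') : n ≤ n' := by
  have := ncard_le_ncard (diff_subset_diff_left s : A \ B ⊆ A' \ B) h'.1
  have := ncard_le_ncard (diff_subset_diff_right s : B \ A' ⊆ B \ A) h.2.1
  linarith [h.2.2, h'.2.2, (Nat.cast_le (α := ℤ)).2 ‹(A \ B).ncard ≤ _›,
    (Nat.cast_le (α := ℤ)).2 this]

theorem Q.insert {I X A : Set E} (s : I ⊆ X) (h : Q I X A) (hA : Aᶜ.Nonempty) :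
    ∃ e ∉ A, Q I X (insert e A) := by
  by_cases h1 : X ⊆ A
  · obtain ⟨e, he⟩ := hA
    exact ⟨e, he, .inr (.inl (h1.trans (subset_insert _ _)))⟩
  by_cases h2 : I ⊆ A
  · obtain ⟨e, he, he'⟩ := not_subset.1 h1
    refine ⟨e, he', .inr (.inr ⟨h2.trans (subset_insert _ _), insert_subset he ?_⟩)⟩
    exact h.elim (·.trans s) fun h => (h.resolve_left h1).2
  · obtain ⟨e, he, he'⟩ := not_subset.1 h2
    exact ⟨e, he', .inl (insert_subset he ((h.resolve_right fun h => h.elim h1 fun h => h2 h.1)))⟩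

theorem up {I X B : Set E} (s : I ⊆ X) (hB : Bᶜ.Infinite) (k : ℕ) :
    ∀ A n, D A B n → Q I X A → ∃ A', D A' B (n + k) ∧ Q I X A' := by
  induction k with
  | zero => exact fun A n h q => ⟨A, by simpa, q⟩
  | succ k ih =>
    intro A n h q
    obtain ⟨A, h, q⟩ := ih A n h q
    obtain ⟨e, he, q⟩ := q.insert s ((hB.diff h.1).nonempty.mono fun x hx hA => hx.2 ⟨hA, hx.1⟩)
    exact ⟨_, by simpa [add_assoc] using h.insert he, q⟩

theorem adjust {I X A B : Set E} (s : I ⊆ X) (hB : B.Infinite) (hB' : Bᶜ.Infinite)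
    (h1 : (A \ B).Finite) (h2 : (B \ A).Finite) (q : Q I X A) (m : ℤ) :
    ∃ A', D A' B m ∧ Q I X A' := by
  obtain ⟨n, h⟩ : ∃ n, D A B n := ⟨_, h1, h2, rfl⟩
  rcases le_total n m with l | l
  · obtain ⟨k, rfl⟩ := Int.le.dest l
    exact up s hB' k A n h q
  · obtain ⟨k, rfl⟩ := Int.le.dest l
    obtain ⟨A', h, q⟩ := up (compl_subset_compl.2 s) (by simpa) k _ _ h.compl q.compl
    exact ⟨A'ᶜ, by simpa using h.compl, by simpa using q.compl⟩

theorem unif_of_family {F : Set (Set E)} (h0 : ∀ B ∈ F, B.Infinite ∧ Bᶜ.Infinite)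
    (h1 : ∀ B ∈ F, ∀ B' ∈ F, (B \ B').Finite → B = B')
    (h2 : ∀ I X, I ⊆ X → ∃ B ∈ F, (B \ I).Finite ∨ (X \ B).Finite ∨ (I ⊆ B ∧ B ⊆ X)) (m : ℤ) :
    Unif fun A => ∃ B ∈ F, D A B m where
  exch := by
    rintro A ⟨B, hB, h⟩ e he f hf
    exact ⟨B, hB, by simpa using (h.erase he).insert (e := f) fun h => hf h.1⟩
  anti := by
    rintro A A' ⟨B, hB, h⟩ ⟨B', hB', h'⟩ s
    obtain rfl := h1 B hB B' hB' ((h.2.1.union h'.1).subset fun x hx => by
      by_cases x ∈ A <;> aesop)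
    by_contra k
    obtain ⟨e, he, he'⟩ := exists_of_ssubset (s.ssubset_of_ne k)
    linarith [(h.insert he').le h' (insert_subset he s)]
  ivp I X s := by
    obtain ⟨B, hB, h⟩ := h2 I X s
    obtain ⟨A, a1, a2, q⟩ : ∃ A, (A \ B).Finite ∧ (B \ A).Finite ∧ Q I X A := by
      rcases h with h | h | h
      · exact ⟨B ∩ I, by simp [inter_subset_left, diff_eq_empty.2], by simpa,
          .inl inter_subset_right⟩
      · exact ⟨B ∪ X, by simpa, finite_empty.subset fun x hx => hx.2 (.inl hx.1),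
          .inr (.inl subset_union_right)⟩
      · exact ⟨B, by simp, by simp, .inr (.inr h)⟩
    obtain ⟨A, h, q⟩ := adjust s (h0 B hB).1 (h0 B hB).2 a1 a2 q m
    exact ⟨A, ⟨B, hB, h⟩, q⟩

end Vale.Agent.P068
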